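import Vale.Agent.P088.R2.H558.E4

/-!
# P088, row EN1: control of `b` from the oscillator bound and the equation

The equation `(P₁ + P₂) b` is tested against `u b`.
-/

open MeasureTheory Set Filter
open scoped ContDiff Matrix Topology

noncomputable section

namespace Vale.Agent.P088.HY.N1

open Vale.Agent.P088.LR

variable {n : ℕ} {s : MF n} {ε : ℝ}

/-! ### Smoothness of the coefficients -/

lemma su_sum {F : Fin n → VV n → ℝ} (h : ∀ i, SU (F i)) : SU (fun z => ∑ i, F i z) :=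
  ContDiffOn.sum fun i _ => h i

lemma su_s1 (hs : SmM s) (i j : Fin n) : SU (fun z : VV n => s z.1 i j) :=
  ((hs i j).comp contDiff_fst).contDiffOn

lemma su_s2 (hs : SmM s) (i j : Fin n) : SU (fun z : VV n => s z.2 i j) :=
  ((hs i j).comp contDiff_snd).contDiffOn

lemma su_vx (hs : SmM s) : SU (fun z : VV n => vp s z.1) := by
  unfold vp
  exact ((su_const _).mul su_r1 |>.mul (su_sum fun i => su_s1 hs i i)).add
    ((su_const _).mul (su_sum fun i => su_sum fun j => ((su_s1 hs i j).mul (su_x i)).mul (su_x j)))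

lemma su_vy (hs : SmM s) : SU (fun z : VV n => vp s z.2) := by
  unfold vp
  exact ((su_const _).mul su_r2 |>.mul (su_sum fun i => su_s2 hs i i)).add
    ((su_const _).mul (su_sum fun i => su_sum fun j => ((su_s2 hs i j).mul (su_y i)).mul (su_y j)))

lemma su_L0x (hs : SmM s) {f : VV n → ℝ} (hf : SU f) : SU (L0x s f) := by
  unfold L0x
  exact su_sum fun i => su_sum fun j => (su_s1 hs i j).mul
    ((su_Ax (su_Ax hf j) i).add (((su_const _).mul (su_x i)).mul (su_Ax hf j)))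

lemma su_L0y (hs : SmM s) {f : VV n → ℝ} (hf : SU f) : SU (L0y s f) := by
  unfold L0y
  exact su_sum fun i => su_sum fun j => (su_s2 hs i j).mul
    ((su_By (su_By hf j) i).add (((su_const _).mul (su_y i)).mul (su_By hf j)))

lemma su_Gax (hs : SmM s) {f h : VV n → ℝ} (hf : SU f) (hh : SU h) : SU (Gax s f h) := by
  unfold Gax
  exact su_sum fun i => su_sum fun j => ((su_s1 hs i j).mul (su_Ax hf i)).mul (su_Ax hh j)

lemma su_Gay (hs : SmM s) {f h : VV n → ℝ} (hf : SU f) (hh : SU h) : SU (Gay s f h) := by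
  unfold Gay
  exact su_sum fun i => su_sum fun j => ((su_s2 hs i j).mul (su_By hf i)).mul (su_By hh j)

lemma kax_eq (s : MF n) (z : VV n) : kax s z = L0x s uu z := by
  unfold kax Dxs L0x; ring

lemma kay_eq (s : MF n) (z : VV n) : kay s z = L0y s uu z := by
  unfold kay Dys L0y; ring

lemma Fxs_eq (s : MF n) (z : VV n) : Fxs s z = Gax s uu uu z := rfl

lemma Fys_eq (s : MF n) (z : VV n) : Fys s z = Gay s uu uu z := rfl

lemma Px_eq (s : MF n) (τ : ℝ) (f : VV n → ℝ) (z : VV n) :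
    Px s τ f z = L0x s f z + vp s z.1 * f z + τ * (2 * Gax s uu f z + L0x s uu z * f z)
      + τ ^ 2 * Gax s uu uu z * f z := by
  unfold Px Kxs
  rw [kax_eq, Fxs_eq]
  rfl

lemma Py_eq (s : MF n) (τ : ℝ) (f : VV n → ℝ) (z : VV n) :
    Py s τ f z = L0y s f z + vp s z.2 * f z + τ * (2 * Gay s uu f z + L0y s uu z * f z)
      + τ ^ 2 * Gay s uu uu z * f z := by
  unfold Py Kys
  rw [kay_eq, Fys_eq]
  rfl

/-! ### Product rules -/

lemma Gax_mul {f g h : VV n → ℝ} (hf : SU f) (hg : SU g) {z : VV n} (hz : z ∈ Un n) :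
    Gax s (fun z => f z * g z) h z = f z * Gax s g h z + g z * Gax s f h z := by
  unfold Gax
  simp only [Ax_eq, Dr_mul hf hg hz, Finset.mul_sum, ← Finset.sum_add_distrib]
  refine Finset.sum_congr rfl fun i _ => Finset.sum_congr rfl fun j _ => ?_
  ring

lemma Gay_mul {f g h : VV n → ℝ} (hf : SU f) (hg : SU g) {z : VV n} (hz : z ∈ Un n) :
    Gay s (fun z => f z * g z) h z = f z * Gay s g h z + g z * Gay s f h z := by
  unfold Gay
  simp only [By_eq, Dr_mul hf hg hz, Finset.mul_sum, ← Finset.sum_add_distrib]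
  refine Finset.sum_congr rfl fun i _ => Finset.sum_congr rfl fun j _ => ?_
  ring

lemma Gax_symm (hs : TS n 3 ε s) (f h : VV n → ℝ) (z : VV n) : Gax s f h z = Gax s h f z := by
  unfold Gax
  rw [Finset.sum_comm]
  refine Finset.sum_congr rfl fun i _ => Finset.sum_congr rfl fun j _ => ?_
  rw [(hs.sy z.1).apply i j]
  ring

lemma Gay_symm (hs : TS n 3 ε s) (f h : VV n → ℝ) (z : VV n) : Gay s f h z = Gay s h f z := by
  unfold Gay
  rw [Finset.sum_comm]
  refine Finset.sum_congr rfl fun i _ => Finset.sum_congr rfl fun j _ => ?_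
  rw [(hs.sy z.2).apply i j]
  ring

/-! ### The divergence theorem -/

lemma div_s1 (hs : TS n 3 ε s) {z : VV n} (hz : z ∈ Un n) (j : Fin n) :
    ∑ i, Ax i (fun z => s z.1 i j) z = 0 := by
  have h : ∀ i, Ax i (fun z => s z.1 i j) z = rr z.1 * pd i (fun y => s y i j) z.1 := by
    intro i
    show rr z.1 * dx i (fun z => s z.1 i j) z = _
    rw [dx_comp_fst (g := fun y => s y i j) ((hs.sm i j).differentiable (by simp) _)]
  simp only [h]
  rw [← Finset.mul_sum, hs.dv z.1 hz.1 j, mul_zero]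

lemma div_s2 (hs : TS n 3 ε s) {z : VV n} (hz : z ∈ Un n) (j : Fin n) :
    ∑ i, By i (fun z => s z.2 i j) z = 0 := by
  have h : ∀ i, By i (fun z => s z.2 i j) z = rr z.2 * pd i (fun y => s y i j) z.2 := by
    intro i
    show rr z.2 * dy i (fun z => s z.2 i j) z = _
    rw [dy_comp_snd (g := fun y => s y i j) ((hs.sm i j).differentiable (by simp) _)]
  simp only [h]
  rw [← Finset.mul_sum, hs.dv z.2 hz.2 j, mul_zero]

/-- The flux `h s ∇f`. -/
def wx (s : MF n) (h f : VV n → ℝ) (i : Fin n) (z : VV n) : ℝ :=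
  h z * ∑ j, s z.1 i j * Ax j f z

/-- The flux `h s ∇f`. -/
def wy (s : MF n) (h f : VV n → ℝ) (i : Fin n) (z : VV n) : ℝ :=
  h z * ∑ j, s z.2 i j * By j f z

lemma tf_wx (hs : SmM s) {h f : VV n → ℝ} (hh : TF (Un n) h) (hf : SU f) (i : Fin n) :
    TF (Un n) (wx s h f i) :=
  hh.mul_su (su_sum fun j => (su_s1 hs i j).mul (su_Ax hf j))

lemma tf_wy (hs : SmM s) {h f : VV n → ℝ} (hh : TF (Un n) h) (hf : SU f) (i : Fin n) :
    TF (Un n) (wy s h f i) :=
  hh.mul_su (su_sum fun j => (su_s2 hs i j).mul (su_By hf j))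

lemma div_wx (hs : TS n 3 ε s) {h f : VV n → ℝ} (hh : SU h) (hf : SU f) {z : VV n}
    (hz : z ∈ Un n) :
    ∑ i, (Ax i (wx s h f i) z + (n - 1) * (z.1 i * wx s h f i z)) =
      Gax s h f z + h z * L0x s f z := by
  have h1 : ∀ i, Ax i (wx s h f i) z = Ax i h z * (∑ j, s z.1 i j * Ax j f z) +
      h z * ∑ j, (Ax i (fun z => s z.1 i j) z * Ax j f z + s z.1 i j * Ax i (Ax j f) z) := by
    intro i
    have e : ∀ j, SU (fun z => s z.1 i j * Ax j f z) := fun j =>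
      (su_s1 hs.sm i j).mul (su_Ax hf j)
    unfold wx
    rw [Ax_eq, Dr_mul hh (su_sum e) hz, Dr_sum Finset.univ e hz]
    congr 1
    congr 1
    refine Finset.sum_congr rfl fun j _ => ?_
    rw [Dr_mul (su_s1 hs.sm i j) (su_Ax hf j) hz]
  have h2 : ∑ i, ∑ j, Ax i (fun z => s z.1 i j) z * Ax j f z = 0 := by
    rw [Finset.sum_comm]
    refine Finset.sum_eq_zero fun j _ => ?_
    rw [← Finset.sum_mul, div_s1 hs hz j, zero_mul]
  have h3 : ∑ i, (Ax i (wx s h f i) z + (n - 1) * (z.1 i * wx s h f i z)) =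
      ∑ i, (∑ j, s z.1 i j * Ax i h z * Ax j f z +
        h z * (∑ j, Ax i (fun z => s z.1 i j) z * Ax j f z +
        ∑ j, s z.1 i j * (Ax i (Ax j f) z + (n - 1) * z.1 i * Ax j f z))) := by
    refine Finset.sum_congr rfl fun i _ => ?_
    rw [h1]
    unfold wx
    simp only [Finset.sum_add_distrib, Finset.mul_sum, mul_add]
    rw [add_assoc, add_assoc]
    congr 1
    · exact Finset.sum_congr rfl fun j _ => by ring
    · congr 1
      congr 1
      exact Finset.sum_congr rfl fun j _ => by ring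
  rw [h3, Finset.sum_add_distrib, ← Finset.mul_sum, Finset.sum_add_distrib, h2, zero_add]
  rfl

lemma div_wy (hs : TS n 3 ε s) {h f : VV n → ℝ} (hh : SU h) (hf : SU f) {z : VV n}
    (hz : z ∈ Un n) :
    ∑ i, (By i (wy s h f i) z + (n - 1) * (z.2 i * wy s h f i z)) =
      Gay s h f z + h z * L0y s f z := by
  have h1 : ∀ i, By i (wy s h f i) z = By i h z * (∑ j, s z.2 i j * By j f z) +
      h z * ∑ j, (By i (fun z => s z.2 i j) z * By j f z + s z.2 i j * By i (By j f) z) := by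
    intro i
    have e : ∀ j, SU (fun z => s z.2 i j * By j f z) := fun j =>
      (su_s2 hs.sm i j).mul (su_By hf j)
    unfold wy
    rw [By_eq, Dr_mul hh (su_sum e) hz, Dr_sum Finset.univ e hz]
    congr 1
    congr 1
    refine Finset.sum_congr rfl fun j _ => ?_
    rw [Dr_mul (su_s2 hs.sm i j) (su_By hf j) hz]
  have h2 : ∑ i, ∑ j, By i (fun z => s z.2 i j) z * By j f z = 0 := by
    rw [Finset.sum_comm]
    refine Finset.sum_eq_zero fun j _ => ?_
    rw [← Finset.sum_mul, div_s2 hs hz j, zero_mul]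
  have h3 : ∑ i, (By i (wy s h f i) z + (n - 1) * (z.2 i * wy s h f i z)) =
      ∑ i, (∑ j, s z.2 i j * By i h z * By j f z +
        h z * (∑ j, By i (fun z => s z.2 i j) z * By j f z +
        ∑ j, s z.2 i j * (By i (By j f) z + (n - 1) * z.2 i * By j f z))) := by
    refine Finset.sum_congr rfl fun i _ => ?_
    rw [h1]
    unfold wy
    simp only [Finset.sum_add_distrib, Finset.mul_sum, mul_add]
    rw [add_assoc, add_assoc]
    congr 1
    · exact Finset.sum_congr rfl fun j _ => by ring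
    · congr 1
      congr 1
      exact Finset.sum_congr rfl fun j _ => by ring
  rw [h3, Finset.sum_add_distrib, ← Finset.mul_sum, Finset.sum_add_distrib, h2, zero_add]
  rfl

/-- `∫ Γ(h, f) + h L f = 0`. -/
lemma EE_L0x (hs : TS n 3 ε s) {h f : VV n → ℝ} (hh : TF (Un n) h) (hf : SU f) :
    EE (fun z => Gax s h f z + h z * L0x s f z) = 0 := by
  have h1 : ∀ i, TF (Un n) (fun z => Ax i (wx s h f i) z + (n - 1) * (z.1 i * wx s h f i z)) :=
    fun i => ((tf_wx hs.sm hh hf i).Ax i).add (((tf_wx hs.sm hh hf i).smul (su_x i)).const_mul _)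
  rw [← EE_congr (fun z hz => div_wx hs hh.su hf hz), EE_sum Finset.univ h1]
  refine Finset.sum_eq_zero fun i _ => ?_
  rw [EE_add ((tf_wx hs.sm hh hf i).Ax i) (((tf_wx hs.sm hh hf i).smul (su_x i)).const_mul _),
    EE_const_mul]
  have h2 := EE_Ax (tf_wx hs.sm hh hf i) i
  have h3 : EE (fun z => Ax i (wx s h f i) z) = EE (Ax i (wx s h f i)) := rfl
  rw [h3, h2]
  ring

/-- `∫ Γ(h, f) + h L f = 0`. -/
lemma EE_L0y (hs : TS n 3 ε s) {h f : VV n → ℝ} (hh : TF (Un n) h) (hf : SU f) :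
    EE (fun z => Gay s h f z + h z * L0y s f z) = 0 := by
  have h1 : ∀ i, TF (Un n) (fun z => By i (wy s h f i) z + (n - 1) * (z.2 i * wy s h f i z)) :=
    fun i => ((tf_wy hs.sm hh hf i).By i).add (((tf_wy hs.sm hh hf i).smul (su_y i)).const_mul _)
  rw [← EE_congr (fun z hz => div_wy hs hh.su hf hz), EE_sum Finset.univ h1]
  refine Finset.sum_eq_zero fun i _ => ?_
  rw [EE_add ((tf_wy hs.sm hh hf i).By i) (((tf_wy hs.sm hh hf i).smul (su_y i)).const_mul _),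
    EE_const_mul]
  have h2 := EE_By (tf_wy hs.sm hh hf i) i
  have h3 : EE (fun z => By i (wy s h f i) z) = EE (By i (wy s h f i)) := rfl
  rw [h3, h2]
  ring

/-! ### The tested equation -/

/-- `u Γ(b, b) + u b P b - (κ/2 + u v - τ F + τ² u F) b²`. -/
def Zx (s : MF n) (τ : ℝ) (b : VV n → ℝ) (z : VV n) : ℝ :=
  uu z * Gax s b b z + uu z * b z * Px s τ b z -
    (1 / 2 * L0x s uu z + uu z * vp s z.1 - τ * Gax s uu uu z + τ ^ 2 * uu z * Gax s uu uu z) *
      b z ^ 2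

/-- `u Γ(b, b) + u b P b - (κ/2 + u v - τ F + τ² u F) b²`. -/
def Zy (s : MF n) (τ : ℝ) (b : VV n → ℝ) (z : VV n) : ℝ :=
  uu z * Gay s b b z + uu z * b z * Py s τ b z -
    (1 / 2 * L0y s uu z + uu z * vp s z.2 - τ * Gay s uu uu z + τ ^ 2 * uu z * Gay s uu uu z) *
      b z ^ 2

lemma su_Px (hs : SmM s) (τ : ℝ) {f : VV n → ℝ} (hf : SU f) : SU (Px s τ f) := by
  have h : Px s τ f = fun z => L0x s f z + vp s z.1 * f z +
      τ * (2 * Gax s uu f z + L0x s uu z * f z) + τ ^ 2 * Gax s uu uu z * f z := by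
    funext z; exact Px_eq s τ f z
  rw [h]
  exact (((su_L0x hs hf).add ((su_vx hs).mul hf)).add ((su_const τ).mul
    (((su_const 2).mul (su_Gax hs su_uu hf)).add ((su_L0x hs su_uu).mul hf)))).add
    (((su_const (τ ^ 2)).mul (su_Gax hs su_uu su_uu)).mul hf)

lemma su_Py (hs : SmM s) (τ : ℝ) {f : VV n → ℝ} (hf : SU f) : SU (Py s τ f) := by
  have h : Py s τ f = fun z => L0y s f z + vp s z.2 * f z +
      τ * (2 * Gay s uu f z + L0y s uu z * f z) + τ ^ 2 * Gay s uu uu z * f z := by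
    funext z; exact Py_eq s τ f z
  rw [h]
  exact (((su_L0y hs hf).add ((su_vy hs).mul hf)).add ((su_const τ).mul
    (((su_const 2).mul (su_Gay hs su_uu hf)).add ((su_L0y hs su_uu).mul hf)))).add
    (((su_const (τ ^ 2)).mul (su_Gay hs su_uu su_uu)).mul hf)

lemma Ax_off {f : VV n → ℝ} {z : VV n} (hz : z ∉ tsupport f) (i : Fin n) : Ax i f z = 0 := by
  have h : f =ᶠ[𝓝 z] fun _ => 0 := by
    filter_upwards [(isClosed_tsupport f).isOpen_compl.mem_nhds hz] with w hw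
    exact eq_zero_of_notMem hw
  show rr z.1 * dd _ f z = 0
  rw [dd_congr h, dd_const, mul_zero]

lemma By_off {f : VV n → ℝ} {z : VV n} (hz : z ∉ tsupport f) (i : Fin n) : By i f z = 0 := by
  have h : f =ᶠ[𝓝 z] fun _ => 0 := by
    filter_upwards [(isClosed_tsupport f).isOpen_compl.mem_nhds hz] with w hw
    exact eq_zero_of_notMem hw
  show rr z.2 * dd _ f z = 0
  rw [dd_congr h, dd_const, mul_zero]

lemma tsupport_Ax (f : VV n → ℝ) (i : Fin n) : tsupport (Ax i f) ⊆ tsupport f := by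
  refine closure_minimal ?_ (isClosed_tsupport f)
  intro z hz
  by_contra hc
  exact hz (Ax_off hc i)

lemma tsupport_By (f : VV n → ℝ) (i : Fin n) : tsupport (By i f) ⊆ tsupport f := by
  refine closure_minimal ?_ (isClosed_tsupport f)
  intro z hz
  by_contra hc
  exact hz (By_off hc i)

lemma Gax_off {f : VV n → ℝ} {z : VV n} (hz : z ∉ tsupport f) (h : VV n → ℝ) :
    Gax s h f z = 0 := by
  unfold Gax
  refine Finset.sum_eq_zero fun i _ => Finset.sum_eq_zero fun j _ => ?_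
  rw [Ax_off hz, mul_zero]

lemma Gay_off {f : VV n → ℝ} {z : VV n} (hz : z ∉ tsupport f) (h : VV n → ℝ) :
    Gay s h f z = 0 := by
  unfold Gay
  refine Finset.sum_eq_zero fun i _ => Finset.sum_eq_zero fun j _ => ?_
  rw [By_off hz, mul_zero]

lemma Px_off {f : VV n → ℝ} {z : VV n} (hz : z ∉ tsupport f) (τ : ℝ) : Px s τ f z = 0 := by
  have h : L0x s f z = 0 := by
    unfold L0x
    refine Finset.sum_eq_zero fun i _ => Finset.sum_eq_zero fun j _ => ?_
    rw [Ax_off hz, Ax_off (fun h' => hz (tsupport_Ax f j h'))]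
    ring
  rw [Px_eq, h, Gax_off hz, eq_zero_of_notMem hz]
  ring

lemma Py_off {f : VV n → ℝ} {z : VV n} (hz : z ∉ tsupport f) (τ : ℝ) : Py s τ f z = 0 := by
  have h : L0y s f z = 0 := by
    unfold L0y
    refine Finset.sum_eq_zero fun i _ => Finset.sum_eq_zero fun j _ => ?_
    rw [By_off hz, By_off (fun h' => hz (tsupport_By f j h'))]
    ring
  rw [Py_eq, h, Gay_off hz, eq_zero_of_notMem hz]
  ring

lemma tf_Px (hs : SmM s) (τ : ℝ) {f : VV n → ℝ} (hf : TF (Un n) f) : TF (Un n) (Px s τ f) :=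
  hf.of_su (su_Px hs τ hf.su) fun _ hz => Px_off hz τ

lemma tf_Py (hs : SmM s) (τ : ℝ) {f : VV n → ℝ} (hf : TF (Un n) f) : TF (Un n) (Py s τ f) :=
  hf.of_su (su_Py hs τ hf.su) fun _ hz => Py_off hz τ

lemma tf_Zx (hs : SmM s) (τ : ℝ) {b : VV n → ℝ} (hb : TF (Un n) b) : TF (Un n) (Zx s τ b) := by
  refine hb.of_su ?_ fun z hz => ?_
  · unfold Zx
    exact ((su_uu.mul (su_Gax hs hb.su hb.su)).add ((su_uu.mul hb.su).mul
      (su_Px hs τ hb.su))).sub ((((((su_const _).mul (su_L0x hs su_uu)).add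
      (su_uu.mul (su_vx hs))).sub ((su_const τ).mul (su_Gax hs su_uu su_uu))).add
      (((su_const (τ ^ 2)).mul su_uu).mul (su_Gax hs su_uu su_uu))).mul (hb.su.pow 2))
  · unfold Zx
    rw [Gax_off hz, eq_zero_of_notMem hz]
    ring

lemma tf_Zy (hs : SmM s) (τ : ℝ) {b : VV n → ℝ} (hb : TF (Un n) b) : TF (Un n) (Zy s τ b) := by
  refine hb.of_su ?_ fun z hz => ?_
  · unfold Zy
    exact ((su_uu.mul (su_Gay hs hb.su hb.su)).add ((su_uu.mul hb.su).mul
      (su_Py hs τ hb.su))).sub ((((((su_const _).mul (su_L0y hs su_uu)).add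
      (su_uu.mul (su_vy hs))).sub ((su_const τ).mul (su_Gay hs su_uu su_uu))).add
      (((su_const (τ ^ 2)).mul su_uu).mul (su_Gay hs su_uu su_uu))).mul (hb.su.pow 2))
  · unfold Zy
    rw [Gay_off hz, eq_zero_of_notMem hz]
    ring

/-- `∫ u b P_x b = -∫ u Γ(b, b) + …`. -/
lemma EE_Zx (hs : TS n 3 ε s) (τ : ℝ) {b : VV n → ℝ} (hb : TF (Un n) b) : EE (Zx s τ b) = 0 := by
  have hub : TF (Un n) (fun z => uu z * b z) := hb.smul su_uu
  have hbb : TF (Un n) (fun z => b z * b z) := hb.mul hb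
  have hubb : TF (Un n) (fun z => uu z * (b z * b z)) := hbb.smul su_uu
  have h1 := EE_L0x hs hub hb.su
  have h2 := EE_L0x hs hbb (su_uu (n := n))
  have h3 := EE_L0x hs hubb (su_uu (n := n))
  have t1 : TF (Un n) (fun z => Gax s (fun z => uu z * b z) b z + uu z * b z * L0x s b z) := by
    refine hb.of_su ((su_Gax hs.sm hub.su hb.su).add (hub.su.mul (su_L0x hs.sm hb.su)))
      fun z hz => ?_
    rw [Gax_off hz, eq_zero_of_notMem hz]
    ring
  have t2 : TF (Un n) (fun z => Gax s (fun z => b z * b z) uu z + b z * b z * L0x s uu z) := by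
    refine hbb.of_su ((su_Gax hs.sm hbb.su su_uu).add (hbb.su.mul (su_L0x hs.sm su_uu)))
      fun z hz => ?_
    rw [Gax_symm hs, Gax_off hz]
    have := eq_zero_of_notMem hz
    rw [this]
    ring
  have t3 : TF (Un n) (fun z => Gax s (fun z => uu z * (b z * b z)) uu z +
      uu z * (b z * b z) * L0x s uu z) := by
    refine hubb.of_su ((su_Gax hs.sm hubb.su su_uu).add (hubb.su.mul (su_L0x hs.sm su_uu)))
      fun z hz => ?_
    rw [Gax_symm hs, Gax_off hz]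
    have := eq_zero_of_notMem hz
    rw [this]
    ring
  have e : EE (Zx s τ b) = EE (fun z =>
      (Gax s (fun z => uu z * b z) b z + uu z * b z * L0x s b z) +
      ((-(1 / 2)) * (Gax s (fun z => b z * b z) uu z + b z * b z * L0x s uu z) +
      τ * (Gax s (fun z => uu z * (b z * b z)) uu z + uu z * (b z * b z) * L0x s uu z))) := by
    refine EE_congr fun z hz => ?_
    rw [Gax_mul su_uu hb.su hz, Gax_mul hb.su hb.su hz, Gax_mul su_uu hbb.su hz,
      Gax_mul hb.su hb.su hz]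
    unfold Zx
    rw [Px_eq, Gax_symm hs uu b]
    ring
  rw [e, EE_add t1 ((t2.const_mul _).add (t3.const_mul _)), EE_add (t2.const_mul _)
    (t3.const_mul _), EE_const_mul, EE_const_mul, h1, h2, h3]
  ring

/-- `∫ u b P_y b = -∫ u Γ(b, b) + …`. -/
lemma EE_Zy (hs : TS n 3 ε s) (τ : ℝ) {b : VV n → ℝ} (hb : TF (Un n) b) : EE (Zy s τ b) = 0 := by
  have hub : TF (Un n) (fun z => uu z * b z) := hb.smul su_uu
  have hbb : TF (Un n) (fun z => b z * b z) := hb.mul hb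
  have hubb : TF (Un n) (fun z => uu z * (b z * b z)) := hbb.smul su_uu
  have h1 := EE_L0y hs hub hb.su
  have h2 := EE_L0y hs hbb (su_uu (n := n))
  have h3 := EE_L0y hs hubb (su_uu (n := n))
  have t1 : TF (Un n) (fun z => Gay s (fun z => uu z * b z) b z + uu z * b z * L0y s b z) := by
    refine hb.of_su ((su_Gay hs.sm hub.su hb.su).add (hub.su.mul (su_L0y hs.sm hb.su)))
      fun z hz => ?_
    rw [Gay_off hz, eq_zero_of_notMem hz]
    ring
  have t2 : TF (Un n) (fun z => Gay s (fun z => b z * b z) uu z + b z * b z * L0y s uu z) := by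
    refine hbb.of_su ((su_Gay hs.sm hbb.su su_uu).add (hbb.su.mul (su_L0y hs.sm su_uu)))
      fun z hz => ?_
    rw [Gay_symm hs, Gay_off hz]
    have := eq_zero_of_notMem hz
    rw [this]
    ring
  have t3 : TF (Un n) (fun z => Gay s (fun z => uu z * (b z * b z)) uu z +
      uu z * (b z * b z) * L0y s uu z) := by
    refine hubb.of_su ((su_Gay hs.sm hubb.su su_uu).add (hubb.su.mul (su_L0y hs.sm su_uu)))
      fun z hz => ?_
    rw [Gay_symm hs, Gay_off hz]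
    have := eq_zero_of_notMem hz
    rw [this]
    ring
  have e : EE (Zy s τ b) = EE (fun z =>
      (Gay s (fun z => uu z * b z) b z + uu z * b z * L0y s b z) +
      ((-(1 / 2)) * (Gay s (fun z => b z * b z) uu z + b z * b z * L0y s uu z) +
      τ * (Gay s (fun z => uu z * (b z * b z)) uu z + uu z * (b z * b z) * L0y s uu z))) := by
    refine EE_congr fun z hz => ?_
    rw [Gay_mul su_uu hb.su hz, Gay_mul hb.su hb.su hz, Gay_mul su_uu hbb.su hz,
      Gay_mul hb.su hb.su hz]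
    unfold Zy
    rw [Py_eq, Gay_symm hs uu b]
    ring
  rw [e, EE_add t1 ((t2.const_mul _).add (t3.const_mul _)), EE_add (t2.const_mul _)
    (t3.const_mul _), EE_const_mul, EE_const_mul, h1, h2, h3]
  ring

/-! ### Bounds at a point -/

lemma abs_x_le {z : VV n} (hz : z ∈ Un n) (i : Fin n) : |z.1 i| ≤ 1 := by
  have h1 : z.1 i ^ 2 ≤ sq z.1 :=
    Finset.single_le_sum (f := fun j => z.1 j ^ 2) (fun j _ => sq_nonneg _) (Finset.mem_univ i)
  have h2 : sq z.1 < 1 := hz.1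
  exact abs_le_one_iff_mul_self_le_one.2 (by nlinarith)

lemma abs_y_le {z : VV n} (hz : z ∈ Un n) (i : Fin n) : |z.2 i| ≤ 1 := by
  have h1 : z.2 i ^ 2 ≤ sq z.2 :=
    Finset.single_le_sum (f := fun j => z.2 j ^ 2) (fun j _ => sq_nonneg _) (Finset.mem_univ i)
  have h2 : sq z.2 < 1 := hz.2
  exact abs_le_one_iff_mul_self_le_one.2 (by nlinarith)

lemma abs_al_le {z : VV n} (hz : z ∈ Un n) (i : Fin n) : |al i z| ≤ uu z := by
  have h1 : al i z * al i z ≤ ∑ j, al j z * al j z :=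
    Finset.single_le_sum (f := fun j => al j z * al j z) (fun j _ => mul_self_nonneg _)
      (Finset.mem_univ i)
  rw [sum_al_sq hz] at h1
  have h2 := one_le_uu hz
  exact abs_le_of_sq_le_sq (by nlinarith) (by linarith)

lemma abs_be_le {z : VV n} (hz : z ∈ Un n) (i : Fin n) : |be i z| ≤ uu z := by
  have h1 : be i z * be i z ≤ ∑ j, be j z * be j z :=
    Finset.single_le_sum (f := fun j => be j z * be j z) (fun j _ => mul_self_nonneg _)
      (Finset.mem_univ i)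
  rw [sum_be_sq hz] at h1
  have h2 := one_le_uu hz
  exact abs_le_of_sq_le_sq (by nlinarith) (by linarith)

lemma abs_s_sub (hs : TS n 3 ε s) (x : V n) (i j : Fin n) :
    |s x i j - (1 : Matrix (Fin n) (Fin n) ℝ) i j| ≤ ε := by
  have h := hs.cl i j 0 (by norm_num) x
  rwa [norm_iteratedFDeriv_zero, Real.norm_eq_abs] at h

lemma abs_s_le (hs : TS n 3 ε s) (hε : ε ≤ 1) (x : V n) (i j : Fin n) : |s x i j| ≤ 2 := by
  have h := abs_s_sub hs x i j
  have h1 : |(1 : Matrix (Fin n) (Fin n) ℝ) i j| ≤ 1 := by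
    rw [Matrix.one_apply]
    split_ifs <;> simp
  have h2 := abs_add_le (s x i j - (1 : Matrix (Fin n) (Fin n) ℝ) i j)
    ((1 : Matrix (Fin n) (Fin n) ℝ) i j)
  rw [sub_add_cancel] at h2
  linarith

/-- Ellipticity. -/
lemma ell (hs : TS n 3 ε s) (hε : ε * n ≤ 1 / 2) (x : V n) (ξ : Fin n → ℝ) :
    |∑ i, ∑ j, s x i j * ξ i * ξ j - ∑ i, ξ i ^ 2| ≤ 1 / 2 * ∑ i, ξ i ^ 2 := by
  have h1 : ∑ i, ∑ j, s x i j * ξ i * ξ j - ∑ i, ξ i ^ 2 =
      ∑ i, ∑ j, (s x i j - (1 : Matrix (Fin n) (Fin n) ℝ) i j) * (ξ i * ξ j) := by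
    rw [← Finset.sum_sub_distrib]
    refine Finset.sum_congr rfl fun i _ => ?_
    have h2 : ξ i ^ 2 = ∑ j, (1 : Matrix (Fin n) (Fin n) ℝ) i j * (ξ i * ξ j) := by
      simp only [Matrix.one_apply, ite_mul, one_mul, zero_mul]
      simp [pow_two]
    rw [h2, ← Finset.sum_sub_distrib]
    exact Finset.sum_congr rfl fun j _ => by ring
  rw [h1]
  have h3 : |∑ i, ∑ j, (s x i j - (1 : Matrix (Fin n) (Fin n) ℝ) i j) * (ξ i * ξ j)| ≤
      ∑ i, ∑ j, ε * (|ξ i| * |ξ j|) := by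
    refine (Finset.abs_sum_le_sum_abs _ _).trans (Finset.sum_le_sum fun i _ => ?_)
    refine (Finset.abs_sum_le_sum_abs _ _).trans (Finset.sum_le_sum fun j _ => ?_)
    rw [abs_mul, abs_mul]
    exact mul_le_mul_of_nonneg_right (abs_s_sub hs x i j) (by positivity)
  have h4 : ∑ i, ∑ j, ε * (|ξ i| * |ξ j|) = ε * (∑ i, |ξ i|) ^ 2 := by
    rw [pow_two, Finset.sum_mul_sum, Finset.mul_sum]
    exact Finset.sum_congr rfl fun i _ => by rw [Finset.mul_sum]
  have h5 : (∑ i, |ξ i|) ^ 2 ≤ n * ∑ i, ξ i ^ 2 := by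
    have := sq_sum_le_card_mul_sum_sq (s := (Finset.univ : Finset (Fin n))) (f := fun i => |ξ i|)
    simpa only [sq_abs, Finset.card_univ, Fintype.card_fin] using this
  have h6 : 0 ≤ ∑ i, ξ i ^ 2 := Finset.sum_nonneg fun i _ => sq_nonneg _
  rcases Nat.eq_zero_or_pos n with h0 | h0
  · subst h0
    simp
  · have hε0 : 0 ≤ ε := (abs_nonneg _).trans (abs_s_sub hs x ⟨0, h0⟩ ⟨0, h0⟩)
    calc _ ≤ ε * (∑ i, |ξ i|) ^ 2 := h3.trans h4.le
      _ ≤ ε * (n * ∑ i, ξ i ^ 2) := mul_le_mul_of_nonneg_left h5 hε0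
      _ = (ε * n) * ∑ i, ξ i ^ 2 := by ring
      _ ≤ 1 / 2 * ∑ i, ξ i ^ 2 := mul_le_mul_of_nonneg_right hε h6

/-- `|v| ≤ V`. -/
def Vc (n : ℕ) : ℝ := |ga n| * n + |ga n * (ga n + 1)| * (2 * n * n)

lemma Vc_nonneg (n : ℕ) : 0 ≤ Vc n := by unfold Vc; positivity

lemma abs_vp_le (hs : TS n 3 ε s) (hε : ε ≤ 1) {x : V n} (hx : x ∈ Bn n) : |vp s x| ≤ Vc n := by
  have hr := rr_pos hx
  have hr2 := rr_le x
  have hxi : ∀ i, |x i| ≤ 1 := by
    intro i
    have h1 : x i ^ 2 ≤ sq x :=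
      Finset.single_le_sum (f := fun j => x j ^ 2) (fun j _ => sq_nonneg _) (Finset.mem_univ i)
    have h2 : sq x < 1 := hx
    exact abs_le_one_iff_mul_self_le_one.2 (by nlinarith)
  have h1 : |∑ i, s x i i| ≤ n * 2 := by
    refine (Finset.abs_sum_le_sum_abs _ _).trans ?_
    refine (Finset.sum_le_sum fun i _ => abs_s_le hs hε x i i).trans ?_
    simp
  have h2 : |∑ i, ∑ j, s x i j * x i * x j| ≤ n * (n * 2) := by
    refine (Finset.abs_sum_le_sum_abs _ _).trans ?_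
    have : ∀ i ∈ (Finset.univ : Finset (Fin n)), |∑ j, s x i j * x i * x j| ≤ n * 2 := by
      intro i _
      refine (Finset.abs_sum_le_sum_abs _ _).trans ?_
      have : ∀ j ∈ (Finset.univ : Finset (Fin n)), |s x i j * x i * x j| ≤ 2 := by
        intro j _
        rw [abs_mul, abs_mul]
        have a1 := abs_s_le hs hε x i j
        have a2 := hxi i
        have a3 := hxi j
        calc |s x i j| * |x i| * |x j| ≤ 2 * 1 * 1 := by gcongr
          _ = 2 := by norm_num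
      refine (Finset.sum_le_sum this).trans ?_
      simp
    refine (Finset.sum_le_sum this).trans ?_
    simp
  unfold vp Vc
  refine (abs_add_le _ _).trans ?_
  rw [abs_mul, abs_mul, abs_mul (ga n * (ga n + 1))]
  rw [abs_of_pos hr]
  refine add_le_add ?_ ?_
  · calc |ga n| * rr x * |∑ i, s x i i| ≤ |ga n| * (1 / 2) * (n * 2) := by gcongr
      _ = |ga n| * n := by ring
  · calc |ga n * (ga n + 1)| * |∑ i, ∑ j, s x i j * x i * x j| ≤
        |ga n * (ga n + 1)| * (n * (n * 2)) := by gcongr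
      _ = _ := by ring

/-- `|κ| ≤ K u`. -/
def Kc (n : ℕ) : ℝ := 2 * n * n * (2 * n + 3)

lemma Kc_nonneg (n : ℕ) : 0 ≤ Kc n := by unfold Kc; positivity

lemma abs_L0x_le (hs : TS n 3 ε s) (hε : ε ≤ 1) {z : VV n} (hz : z ∈ Un n) :
    |L0x s uu z| ≤ Kc n * uu z := by
  have hu := one_le_uu hz
  have hxa : |xa z| ≤ n * uu z := by
    unfold xa
    refine (Finset.abs_sum_le_sum_abs _ _).trans ?_
    have : ∀ i ∈ (Finset.univ : Finset (Fin n)), |z.1 i * al i z| ≤ uu z := by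
      intro i _
      rw [abs_mul]
      calc |z.1 i| * |al i z| ≤ 1 * uu z :=
            mul_le_mul (abs_x_le hz i) (abs_al_le hz i) (abs_nonneg _) zero_le_one
        _ = uu z := one_mul _
    refine (Finset.sum_le_sum this).trans ?_
    simp
  have hterm : ∀ i j, |s z.1 i j * (Ax i (Ax j uu) z + (n - 1) * z.1 i * Ax j uu z)| ≤
      2 * ((2 * n + 3) * uu z) := by
    intro i j
    rw [abs_mul]
    refine mul_le_mul (abs_s_le hs hε z.1 i j) ?_ (abs_nonneg _) (by norm_num)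
    have e : Ax i (Ax j uu) z = kd i j * (uu z - xa z) + z.1 j * al i z := Ax_al hz i j
    have e2 : Ax j uu z = al j z := rfl
    rw [e, e2]
    have b1 : |kd i j * (uu z - xa z)| ≤ uu z + n * uu z := by
      rw [abs_mul]
      have k1 : |kd i j| ≤ 1 := by unfold kd; split_ifs <;> simp
      have k2 : |uu z - xa z| ≤ uu z + n * uu z := by
        refine (abs_sub _ _).trans ?_
        rw [abs_of_pos (by linarith : 0 < uu z)]
        linarith
      calc |kd i j| * |uu z - xa z| ≤ 1 * (uu z + n * uu z) :=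
            mul_le_mul k1 k2 (abs_nonneg _) zero_le_one
        _ = _ := one_mul _
    have b2 : |z.1 j * al i z| ≤ uu z := by
      rw [abs_mul]
      calc |z.1 j| * |al i z| ≤ 1 * uu z :=
            mul_le_mul (abs_x_le hz j) (abs_al_le hz i) (abs_nonneg _) zero_le_one
        _ = uu z := one_mul _
    have b3 : |((n : ℝ) - 1) * z.1 i * al j z| ≤ (n + 1) * uu z := by
      rw [abs_mul, abs_mul]
      have k1 : |(n : ℝ) - 1| ≤ n + 1 := by
        have : (0 : ℝ) ≤ n := Nat.cast_nonneg n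
        rw [abs_le]
        constructor <;> linarith
      have k2 : |(n : ℝ) - 1| * |z.1 i| ≤ (n + 1) * 1 :=
        mul_le_mul k1 (abs_x_le hz i) (abs_nonneg _) (by positivity)
      calc |(n : ℝ) - 1| * |z.1 i| * |al j z| ≤ ((n + 1) * 1) * uu z :=
            mul_le_mul k2 (abs_al_le hz j) (abs_nonneg _) (by positivity)
        _ = _ := by ring
    refine (abs_add_le _ _).trans ?_
    have b4 := abs_add_le (kd i j * (uu z - xa z)) (z.1 j * al i z)
    linarith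
  unfold L0x
  refine (Finset.abs_sum_le_sum_abs _ _).trans ?_
  refine (Finset.sum_le_sum fun i _ => (Finset.abs_sum_le_sum_abs _ _).trans
    (Finset.sum_le_sum fun j _ => hterm i j)).trans ?_
  simp only [Finset.sum_const, Finset.card_univ, Fintype.card_fin, nsmul_eq_mul]
  unfold Kc
  apply le_of_eq
  ring

lemma abs_L0y_le (hs : TS n 3 ε s) (hε : ε ≤ 1) {z : VV n} (hz : z ∈ Un n) :
    |L0y s uu z| ≤ Kc n * uu z := by
  have hu := one_le_uu hz
  have hxa : |yb z| ≤ n * uu z := by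
    unfold yb
    refine (Finset.abs_sum_le_sum_abs _ _).trans ?_
    have : ∀ i ∈ (Finset.univ : Finset (Fin n)), |z.2 i * be i z| ≤ uu z := by
      intro i _
      rw [abs_mul]
      calc |z.2 i| * |be i z| ≤ 1 * uu z :=
            mul_le_mul (abs_y_le hz i) (abs_be_le hz i) (abs_nonneg _) zero_le_one
        _ = uu z := one_mul _
    refine (Finset.sum_le_sum this).trans ?_
    simp
  have hterm : ∀ i j, |s z.2 i j * (By i (By j uu) z + (n - 1) * z.2 i * By j uu z)| ≤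
      2 * ((2 * n + 3) * uu z) := by
    intro i j
    rw [abs_mul]
    refine mul_le_mul (abs_s_le hs hε z.2 i j) ?_ (abs_nonneg _) (by norm_num)
    have e : By i (By j uu) z = kd i j * (uu z - yb z) + z.2 j * be i z := By_be hz i j
    have e2 : By j uu z = be j z := rfl
    rw [e, e2]
    have b1 : |kd i j * (uu z - yb z)| ≤ uu z + n * uu z := by
      rw [abs_mul]
      have k1 : |kd i j| ≤ 1 := by unfold kd; split_ifs <;> simp
      have k2 : |uu z - yb z| ≤ uu z + n * uu z := by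
        refine (abs_sub _ _).trans ?_
        rw [abs_of_pos (by linarith : 0 < uu z)]
        linarith
      calc |kd i j| * |uu z - yb z| ≤ 1 * (uu z + n * uu z) :=
            mul_le_mul k1 k2 (abs_nonneg _) zero_le_one
        _ = _ := one_mul _
    have b2 : |z.2 j * be i z| ≤ uu z := by
      rw [abs_mul]
      calc |z.2 j| * |be i z| ≤ 1 * uu z :=
            mul_le_mul (abs_y_le hz j) (abs_be_le hz i) (abs_nonneg _) zero_le_one
        _ = uu z := one_mul _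
    have b3 : |((n : ℝ) - 1) * z.2 i * be j z| ≤ (n + 1) * uu z := by
      rw [abs_mul, abs_mul]
      have k1 : |(n : ℝ) - 1| ≤ n + 1 := by
        have : (0 : ℝ) ≤ n := Nat.cast_nonneg n
        rw [abs_le]
        constructor <;> linarith
      have k2 : |(n : ℝ) - 1| * |z.2 i| ≤ (n + 1) * 1 :=
        mul_le_mul k1 (abs_y_le hz i) (abs_nonneg _) (by positivity)
      calc |(n : ℝ) - 1| * |z.2 i| * |be j z| ≤ ((n + 1) * 1) * uu z :=
            mul_le_mul k2 (abs_be_le hz j) (abs_nonneg _) (by positivity)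
        _ = _ := by ring
    refine (abs_add_le _ _).trans ?_
    have b4 := abs_add_le (kd i j * (uu z - yb z)) (z.2 j * be i z)
    linarith
  unfold L0y
  refine (Finset.abs_sum_le_sum_abs _ _).trans ?_
  refine (Finset.sum_le_sum fun i _ => (Finset.abs_sum_le_sum_abs _ _).trans
    (Finset.sum_le_sum fun j _ => hterm i j)).trans ?_
  simp only [Finset.sum_const, Finset.card_univ, Fintype.card_fin, nsmul_eq_mul]
  unfold Kc
  apply le_of_eq
  ring

/-! ### `H_+ ≥ 0` -/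

/-- `|mᵀ ξ|² = |ξ|² + (α · ξ)²`. -/
lemma sum_mT_sq {z : VV n} (hz : z ∈ Un n) (ξ : Fin n → ℝ) :
    ∑ j, (∑ i, ξ i * mm i j z) ^ 2 = ∑ i, ξ i ^ 2 + (∑ i, al i z * ξ i) ^ 2 := by
  have h1 := (r1_pos hz).ne'
  have h2 := (r2_pos hz).ne'
  set X : ℝ := ∑ i, z.1 i * ξ i with hX
  set Y : ℝ := ∑ i, z.2 i * ξ i with hY
  have ha : ∑ i, al i z * ξ i = ((r2 z)⁻¹ + (uu z - 1)) * X - (r2 z)⁻¹ * Y := by
    rw [hX, hY, Finset.mul_sum, Finset.mul_sum, ← Finset.sum_sub_distrib]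
    refine Finset.sum_congr rfl fun i _ => ?_
    rw [al_lin hz]
    ring
  set a : ℝ := ∑ i, al i z * ξ i with ha'
  have e1 : ∀ j, ∑ i, ξ i * mm i j z =
      -ξ j + ((-(X * (r1 z)⁻¹)) * z.1 j + (X * (r1 z)⁻¹ + a) * z.2 j) := by
    intro j
    have e2 : ∀ i, ξ i * mm i j z = -(kd i j * ξ i) +
        ((be j z - (uu z - 1) * z.2 j) * (z.1 i * ξ i) + z.2 j * (al i z * ξ i)) := by
      intro i
      rw [mm_eq hz]
      ring
    simp only [e2, Finset.sum_add_distrib, Finset.sum_neg_distrib, ← Finset.mul_sum]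
    rw [sum_kd', ← hX, ← ha', be_lin hz]
    ring
  have e3 : ∀ j, (∑ i, ξ i * mm i j z) ^ 2 = ξ j ^ 2 +
      ((-2 * (-(X * (r1 z)⁻¹))) * (z.1 j * ξ j) + (-2 * (X * (r1 z)⁻¹ + a)) * (z.2 j * ξ j) +
      ((-(X * (r1 z)⁻¹)) * z.1 j + (X * (r1 z)⁻¹ + a) * z.2 j) *
      ((-(X * (r1 z)⁻¹)) * z.1 j + (X * (r1 z)⁻¹ + a) * z.2 j)) := by
    intro j
    rw [e1]
    ring
  simp only [e3, Finset.sum_add_distrib]
  rw [← Finset.mul_sum, ← Finset.mul_sum, ← hX, ← hY, sum_lin, xy_eq hz, ha]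
  field_simp
  ring

lemma cr_eq (f : VV n → ℝ) (z : VV n) :
    cr f z = ∑ j, (∑ i, Ax i f z * mm i j z) * By j f z := by
  unfold cr
  rw [Finset.sum_comm]
  refine Finset.sum_congr rfl fun j _ => ?_
  rw [Finset.sum_mul]

lemma Hp_nonneg (f : VV n → ℝ) {z : VV n} (hz : z ∈ Un n) : 0 ≤ Hp f z := by
  have hu := one_le_uu hz
  have hu0 : 0 < uu z := by linarith
  set ξ : Fin n → ℝ := fun i => Ax i f z with hξ
  set η : Fin n → ℝ := fun i => By i f z with hη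
  set μ : Fin n → ℝ := fun j => ∑ i, ξ i * mm i j z with hμ
  have h1 : ∑ j, μ j ^ 2 = ∑ i, ξ i ^ 2 + (∑ i, al i z * ξ i) ^ 2 := sum_mT_sq hz ξ
  have h2 : (∑ i, al i z * ξ i) ^ 2 ≤ (∑ i, al i z ^ 2) * ∑ i, ξ i ^ 2 :=
    Finset.sum_mul_sq_le_sq_mul_sq _ _ _
  have h3 : ∑ i, al i z ^ 2 = uu z ^ 2 - 1 := by
    rw [← sum_al_sq hz]
    exact Finset.sum_congr rfl fun i _ => by ring
  have h4 : 0 ≤ ∑ j, (μ j + uu z * η j) ^ 2 := Finset.sum_nonneg fun j _ => sq_nonneg _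
  have h5 : ∑ j, (μ j + uu z * η j) ^ 2 =
      ∑ j, μ j ^ 2 + 2 * uu z * ∑ j, μ j * η j + uu z ^ 2 * ∑ j, η j ^ 2 := by
    rw [Finset.mul_sum, Finset.mul_sum, ← Finset.sum_add_distrib, ← Finset.sum_add_distrib]
    exact Finset.sum_congr rfl fun j _ => by ring
  have h6 : Hp f z = uu z * (∑ i, ξ i ^ 2 + ∑ i, η i ^ 2) + 2 * ∑ j, μ j * η j := by
    unfold Hp g2
    rw [cr_eq]
  rw [h3] at h2
  have h7 : 0 ≤ uu z * Hp f z := by
    rw [h6]
    nlinarith
  exact nonneg_of_mul_nonneg_right h7 hu0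

/-! ### The pointwise inequality -/

lemma F_eq {z : VV n} (hz : z ∈ Un n) : uu z * ps z = uu z ^ 2 - 1 := by
  have hu : uu z ≠ 0 := by have := one_le_uu hz; linarith
  unfold ps
  field_simp

lemma ps_nonneg {z : VV n} (hz : z ∈ Un n) : 0 ≤ ps z := by
  have hu := one_le_uu hz
  have h := F_eq hz
  have h1 : 0 ≤ uu z * ps z := by rw [h]; nlinarith
  exact nonneg_of_mul_nonneg_right h1 (by linarith)

lemma Gax_ge (hs : TS n 3 ε s) (hε : ε * n ≤ 1 / 2) (f : VV n → ℝ) (z : VV n) :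
    1 / 2 * ∑ i, Ax i f z ^ 2 ≤ Gax s f f z ∧ Gax s f f z ≤ 2 * ∑ i, Ax i f z ^ 2 := by
  have h := ell hs hε z.1 (fun i => Ax i f z)
  have h0 : 0 ≤ ∑ i, Ax i f z ^ 2 := Finset.sum_nonneg fun i _ => sq_nonneg _
  have h1 := abs_le.1 h
  unfold Gax
  constructor <;> linarith [h1.1, h1.2]

lemma Gay_ge (hs : TS n 3 ε s) (hε : ε * n ≤ 1 / 2) (f : VV n → ℝ) (z : VV n) :
    1 / 2 * ∑ i, By i f z ^ 2 ≤ Gay s f f z ∧ Gay s f f z ≤ 2 * ∑ i, By i f z ^ 2 := by
  have h := ell hs hε z.2 (fun i => By i f z)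
  have h0 : 0 ≤ ∑ i, By i f z ^ 2 := Finset.sum_nonneg fun i _ => sq_nonneg _
  have h1 := abs_le.1 h
  unfold Gay
  constructor <;> linarith [h1.1, h1.2]

lemma Fx_bd (hs : TS n 3 ε s) (hε : ε * n ≤ 1 / 2) {z : VV n} (hz : z ∈ Un n) :
    0 ≤ Gax s uu uu z ∧ Gax s uu uu z ≤ 2 * (uu z * ps z) := by
  have h := Gax_ge hs hε uu z
  have h3 : ∑ i, Ax i uu z ^ 2 = uu z ^ 2 - 1 := by
    rw [← sum_al_sq hz]
    exact Finset.sum_congr rfl fun i _ => by rw [Ax_uu]; ring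
  rw [F_eq hz]
  rw [h3] at h
  have hu := one_le_uu hz
  exact ⟨by nlinarith [h.1], h.2⟩

lemma Fy_bd (hs : TS n 3 ε s) (hε : ε * n ≤ 1 / 2) {z : VV n} (hz : z ∈ Un n) :
    0 ≤ Gay s uu uu z ∧ Gay s uu uu z ≤ 2 * (uu z * ps z) := by
  have h := Gay_ge hs hε uu z
  have h3 : ∑ i, By i uu z ^ 2 = uu z ^ 2 - 1 := by
    rw [← sum_be_sq hz]
    exact Finset.sum_congr rfl fun i _ => by rw [By_uu]; ring
  rw [F_eq hz]
  rw [h3] at h
  have hu := one_le_uu hz
  exact ⟨by nlinarith [h.1], h.2⟩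

/-- The constant. -/
def C1 (n : ℕ) : ℝ := 9 + 2 * Kc n + 4 * Vc n

lemma alg {τ U ψ B g G1 G2 F1 F2 P1 P2 κ1 κ2 w1 w2 K V : ℝ} (hτ : 1 ≤ τ) (hU : 1 ≤ U)
    (hp : 0 ≤ ψ) (hK : 0 ≤ K) (hV : 0 ≤ V) (hg : g ≤ 2 * (G1 + G2)) (f1 : 0 ≤ F1) (f2 : 0 ≤ F2)
    (f1' : F1 ≤ 2 * (U * ψ)) (f2' : F2 ≤ 2 * (U * ψ)) (k1 : κ1 ≤ K * U) (k2 : κ2 ≤ K * U)
    (v1 : w1 ≤ V) (v2 : w2 ≤ V) :
    τ ^ 3 * (U ^ 2 * ψ) * B ^ 2 + τ ^ 2 * U ^ 2 * B ^ 2 + τ * U * g ≤
      (2 * τ) * ((U * G1 + U * B * P1 -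
        (1 / 2 * κ1 + U * w1 - τ * F1 + τ ^ 2 * U * F1) * B ^ 2) +
      (U * G2 + U * B * P2 -
        (1 / 2 * κ2 + U * w2 - τ * F2 + τ ^ 2 * U * F2) * B ^ 2)) + (P1 + P2) ^ 2 +
      (9 + 2 * K + 4 * V) * (τ ^ 3 * (U ^ 2 * ψ) * B ^ 2 + τ ^ 2 * U ^ 2 * B ^ 2) := by
  have hB : 0 ≤ B ^ 2 := sq_nonneg _
  have hτ0 : 0 ≤ τ := by linarith
  have hU0 : 0 ≤ U := by linarith
  have a1 : τ * U * g ≤ τ * U * (2 * (G1 + G2)) :=
    mul_le_mul_of_nonneg_left hg (mul_nonneg hτ0 hU0)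
  have a3 : 0 ≤ (τ * U * B + (P1 + P2)) ^ 2 := sq_nonneg _
  have hτU : τ * U ≤ τ ^ 2 * U ^ 2 := by
    have h1 : 1 ≤ τ * U := one_le_mul_of_one_le_of_one_le hτ hU
    have h2 := mul_le_mul_of_nonneg_left h1 (mul_nonneg hτ0 hU0)
    linarith
  have a4 : τ * (κ1 + κ2) * B ^ 2 ≤ 2 * K * (τ ^ 2 * U ^ 2) * B ^ 2 := by
    have h1 : τ * (κ1 + κ2) ≤ τ * (2 * K * U) :=
      mul_le_mul_of_nonneg_left (by linarith) hτ0
    have h2 : τ * (2 * K * U) ≤ 2 * K * (τ ^ 2 * U ^ 2) := by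
      have := mul_le_mul_of_nonneg_left hτU (by linarith : 0 ≤ 2 * K)
      linarith
    exact mul_le_mul_of_nonneg_right (h1.trans h2) hB
  have a5 : 2 * τ * U * (w1 + w2) * B ^ 2 ≤ 4 * V * (τ ^ 2 * U ^ 2) * B ^ 2 := by
    have h1 : 2 * τ * U * (w1 + w2) ≤ 2 * τ * U * (2 * V) :=
      mul_le_mul_of_nonneg_left (by linarith) (by positivity)
    have h2 : 2 * τ * U * (2 * V) ≤ 4 * V * (τ ^ 2 * U ^ 2) := by
      have := mul_le_mul_of_nonneg_left hτU (by linarith : 0 ≤ 4 * V)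
      linarith
    exact mul_le_mul_of_nonneg_right (h1.trans h2) hB
  have a6 : 0 ≤ 2 * τ ^ 2 * (F1 + F2) * B ^ 2 := by positivity
  have a7 : 2 * τ ^ 3 * U * B ^ 2 * (F1 + F2) ≤ 2 * τ ^ 3 * U * B ^ 2 * (4 * (U * ψ)) :=
    mul_le_mul_of_nonneg_left (by linarith) (by positivity)
  have a8 : 0 ≤ τ ^ 3 * (U ^ 2 * ψ) * B ^ 2 := by positivity
  have a10 : 0 ≤ (2 * K + 4 * V) * (τ ^ 3 * (U ^ 2 * ψ) * B ^ 2) :=
    mul_nonneg (by linarith) a8
  have a9 : 0 ≤ τ ^ 2 * U ^ 2 * B ^ 2 := by positivity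
  linarith

lemma point {s₁ s₂ : MF n} (h₁ : TS n 3 ε s₁) (h₂ : TS n 3 ε s₂) (hε : ε * n ≤ 1 / 2)
    (hε1 : ε ≤ 1) {τ : ℝ} (hτ : 1 ≤ τ) (b : VV n → ℝ) {z : VV n} (hz : z ∈ Un n) :
    Nb τ b z ≤ (2 * τ) * (Zx s₁ τ b z + Zy s₂ τ b z) + (Px s₁ τ b z + Py s₂ τ b z) ^ 2 +
      C1 n * (τ ^ 3 * (uu z ^ 2 * ps z) * b z ^ 2 + τ ^ 2 * uu z ^ 2 * b z ^ 2) := by
  have g1 := Gax_ge h₁ hε b z
  have g2' := Gay_ge h₂ hε b z
  have f1 := Fx_bd h₁ hε hz
  have f2 := Fy_bd h₂ hε hz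
  have hg : g2 b z ≤ 2 * (Gax s₁ b b z + Gay s₂ b b z) := by
    unfold g2; linarith [g1.1, g2'.1]
  exact alg hτ (one_le_uu hz) (ps_nonneg hz) (Kc_nonneg n) (Vc_nonneg n) hg f1.1 f2.1 f1.2 f2.2
    (abs_le.1 (abs_L0x_le h₁ hε1 hz)).2 (abs_le.1 (abs_L0y_le h₂ hε1 hz)).2
    (abs_le.1 (abs_vp_le h₁ hε1 hz.1)).2 (abs_le.1 (abs_vp_le h₂ hε1 hz.2)).2

/-! ### Test functions -/

lemma su_g2 {f : VV n → ℝ} (hf : SU f) : SU (g2 f) := by
  unfold g2
  exact (su_sum fun i => (su_Ax hf i).pow 2).add (su_sum fun i => (su_By hf i).pow 2)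

lemma su_cr {f : VV n → ℝ} (hf : SU f) : SU (cr f) := by
  unfold cr
  exact su_sum fun i => su_sum fun j => ((su_Ax hf i).mul (su_mm i j)).mul (su_By hf j)

lemma su_ps : SU (ps : VV n → ℝ) := by
  unfold ps
  exact su_uu.sub (su_uu.inv fun z hz => by have := one_le_uu hz; linarith)

lemma g2_off {f : VV n → ℝ} {z : VV n} (hz : z ∉ tsupport f) : g2 f z = 0 := by
  unfold g2
  simp [Ax_off hz, By_off hz]

lemma cr_off {f : VV n → ℝ} {z : VV n} (hz : z ∉ tsupport f) : cr f z = 0 := by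
  unfold cr
  simp [Ax_off hz]

lemma tf_Nb (τ : ℝ) {b : VV n → ℝ} (hb : TF (Un n) b) : TF (Un n) (Nb τ b) := by
  refine hb.of_su ?_ fun z hz => ?_
  · unfold Nb
    exact ((((su_const _).mul ((su_uu.pow 2).mul su_ps)).mul (hb.su.pow 2)).add
      (((su_const _).mul (su_uu.pow 2)).mul (hb.su.pow 2))).add
      (((su_const τ).mul su_uu).mul (su_g2 hb.su))
  · unfold Nb
    rw [g2_off hz, eq_zero_of_notMem hz]
    ring

lemma tf_Q (τ : ℝ) {b : VV n → ℝ} (hb : TF (Un n) b) :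
    TF (Un n) (fun z => 2 * τ * Hp b z + 8 * τ ^ 3 * (uu z ^ 2 * ps z) * b z ^ 2) := by
  refine hb.of_su ?_ fun z hz => ?_
  · unfold Hp
    exact ((su_const _).mul ((su_uu.mul (su_g2 hb.su)).add
      ((su_const 2).mul (su_cr hb.su)))).add
      (((su_const _).mul ((su_uu.pow 2).mul su_ps)).mul (hb.su.pow 2))
  · unfold Hp
    rw [g2_off hz, cr_off hz, eq_zero_of_notMem hz]
    ring

end Vale.Agent.P088.HY.N1

namespace Vale.Agent.P088.HY

open Vale.Agent.P088.LR N1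

/-- (EN1) control of `b`. -/
theorem rowEN1 : RowEOS → RowEN1 := by
  intro hOS n hn
  have hC : 0 ≤ C1 n := by
    unfold C1
    have := Kc_nonneg n
    have := Vc_nonneg n
    linarith
  have hn0 : (0 : ℝ) ≤ n := Nat.cast_nonneg n
  have hn1 : (1 : ℝ) ≤ n := by exact_mod_cast hn
  refine ⟨1 + C1 n, 1 / (2 * (n + 1)), 1, by linarith, by positivity, le_rfl, ?_⟩
  intro s₁ s₂ h₁ h₂ τ hτ b hb
  have hτ0 : 0 < τ := by linarith
  have hε : 1 / (2 * ((n : ℝ) + 1)) * n ≤ 1 / 2 := by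
    rw [div_mul_eq_mul_div, one_mul, div_le_div_iff₀ (by positivity) (by norm_num)]
    linarith
  have hε1 : 1 / (2 * ((n : ℝ) + 1)) ≤ 1 := by
    rw [div_le_one (by positivity)]
    linarith
  have t3 : TF (Un n) (fun z => τ ^ 3 * (uu z ^ 2 * ps z) * b z ^ 2) :=
    hb.pow2.smul ((su_const _).mul ((su_uu.pow 2).mul su_ps))
  have t2 : TF (Un n) (fun z => τ ^ 2 * uu z ^ 2 * b z ^ 2) :=
    hb.pow2.smul ((su_const _).mul (su_uu.pow 2))
  have tZ : TF (Un n) (fun z => Zx s₁ τ b z + Zy s₂ τ b z) :=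
    (tf_Zx h₁.sm τ hb).add (tf_Zy h₂.sm τ hb)
  have tP : TF (Un n) (fun z => (Px s₁ τ b z + Py s₂ τ b z) ^ 2) :=
    ((tf_Px h₁.sm τ hb).add (tf_Py h₂.sm τ hb)).pow2
  have tO : TF (Un n) (fun z => ((n + 1) * uu z ^ 2 - 1) * b z ^ 2) :=
    hb.pow2.smul (((su_const _).mul (su_uu.pow 2)).sub (su_const 1))
  have eZ : EE (fun z => Zx s₁ τ b z + Zy s₂ τ b z) = 0 := by
    rw [EE_add (tf_Zx h₁.sm τ hb) (tf_Zy h₂.sm τ hb)]
    have e1 := EE_Zx h₁ τ hb
    have e2 := EE_Zy h₂ τ hb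
    have e3 : EE (fun z => Zx s₁ τ b z) = EE (Zx s₁ τ b) := rfl
    have e4 : EE (fun z => Zy s₂ τ b z) = EE (Zy s₂ τ b) := rfl
    rw [e3, e4, e1, e2, add_zero]
  have m1 : EE (Nb τ b) ≤ EE (fun z => (2 * τ) * (Zx s₁ τ b z + Zy s₂ τ b z) +
      (Px s₁ τ b z + Py s₂ τ b z) ^ 2 +
      C1 n * (τ ^ 3 * (uu z ^ 2 * ps z) * b z ^ 2 + τ ^ 2 * uu z ^ 2 * b z ^ 2)) :=
    EE_mono (tf_Nb τ hb) (((tZ.const_mul _).add tP).add ((t3.add t2).const_mul _))
      fun z hz => point h₁ h₂ hε hε1 hτ b hz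
  rw [EE_add ((tZ.const_mul _).add tP) ((t3.add t2).const_mul _), EE_add (tZ.const_mul _) tP,
    EE_const_mul, EE_const_mul, eZ, mul_zero, zero_add, EE_add t3 t2] at m1
  set Q := EE (fun z => 2 * τ * Hp b z + 8 * τ ^ 3 * (uu z ^ 2 * ps z) * b z ^ 2) with hQ
  set P := EE (fun z => (Px s₁ τ b z + Py s₂ τ b z) ^ 2) with hP
  have m2 : 8 * EE (fun z => τ ^ 3 * (uu z ^ 2 * ps z) * b z ^ 2) ≤ Q := by
    rw [← EE_const_mul, hQ]
    refine EE_mono (t3.const_mul _) (tf_Q τ hb) fun z hz => ?_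
    have := mul_nonneg (mul_nonneg (by norm_num : (0 : ℝ) ≤ 2) hτ0.le) (Hp_nonneg b hz)
    linarith
  have m3 : 8 * EE (fun z => τ ^ 2 * uu z ^ 2 * b z ^ 2) ≤ Q := by
    have h := hOS n τ hτ0 b hb
    rw [← hQ, mul_comm (8 : ℝ) (τ ^ 2), mul_assoc, ← EE_const_mul, ← EE_const_mul] at h
    refine le_trans ?_ h
    rw [← EE_const_mul]
    refine EE_mono (t2.const_mul _) ((tO.const_mul _).const_mul _) fun z hz => ?_
    have hu := one_le_uu hz
    have h1 : uu z ^ 2 ≤ ((n : ℝ) + 1) * uu z ^ 2 - 1 := by nlinarith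
    have h2 := mul_le_mul_of_nonneg_left h1 (by positivity : 0 ≤ 8 * τ ^ 2 * b z ^ 2)
    linarith
  have m4 : 0 ≤ EE (fun z => τ ^ 3 * (uu z ^ 2 * ps z) * b z ^ 2) :=
    EE_nonneg fun z hz => by
      have := ps_nonneg hz
      positivity
  have hP0 : 0 ≤ P := EE_nonneg fun z _ => sq_nonneg _
  have hQ0 : 0 ≤ Q := by linarith
  have m5 : C1 n * (EE (fun z => τ ^ 3 * (uu z ^ 2 * ps z) * b z ^ 2) +
      EE (fun z => τ ^ 2 * uu z ^ 2 * b z ^ 2)) ≤ C1 n * Q :=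
    mul_le_mul_of_nonneg_left (by linarith) hC
  have m6 : 0 ≤ C1 n * P := mul_nonneg hC hP0
  linarith

end Vale.Agent.P088.HY
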